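import Mathlib

/-!
P315: the number of levels of the query algorithm as a function of the length of the input, and
the arithmetic of the final running time (one pass form).

`L0 = Nat.log M (N+1) / q`, `w = 2 ^ S` with `S` the number of scales, `L` = the largest multiple
of `w` which is at most `L0`, `K = M ^ L` = the number of rows.
-/

set_option autoImplicit false

namespace Vale.Agent.P315.H809

open Real

/-! ### The number of levels -/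

/-- upper bound for the number of levels before rounding -/
def lev0 (M q N : ℕ) : ℕ := Nat.log M (N + 1) / q

/-- number of scales -/
def scal (B m : ℕ) : ℕ := Nat.clog 2 (Nat.clog B ((m + 2) ^ 3))

/-- number of scales for the length `N` -/
def scalN (B M q N : ℕ) : ℕ := scal B (lev0 M q N)

/-- number of levels: a multiple of `2 ^ scalN` -/
def lev (B M q N : ℕ) : ℕ := 2 ^ scalN B M q N * (lev0 M q N / 2 ^ scalN B M q N)

theorem two_pow_dvd_lev (B M q N : ℕ) : 2 ^ scalN B M q N ∣ lev B M q N := Dvd.intro _ rfl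

theorem lev_le_lev0 (B M q N : ℕ) : lev B M q N ≤ lev0 M q N := Nat.mul_div_le _ _

theorem lev0_lt (B M q N : ℕ) : lev0 M q N < lev B M q N + 2 ^ scalN B M q N := by
  have h : 0 < 2 ^ scalN B M q N := by positivity
  have := Nat.lt_mul_div_succ (lev0 M q N) h
  unfold lev
  rw [mul_add, mul_one] at this
  exact this

theorem le_pow_scal {B : ℕ} (hB : 2 ≤ B) (m : ℕ) : (m + 2) ^ 3 ≤ B ^ 2 ^ scal B m := by
  calc (m + 2) ^ 3 ≤ B ^ Nat.clog B ((m + 2) ^ 3) := Nat.le_pow_clog (by omega) _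
    _ ≤ B ^ 2 ^ scal B m :=
        Nat.pow_le_pow_right (by omega) (Nat.le_pow_clog (by norm_num) _)

theorem cube_le {B : ℕ} (hB : 2 ≤ B) (M q N : ℕ) :
    (lev B M q N + 2) ^ 3 ≤ B ^ 2 ^ scalN B M q N :=
  (Nat.pow_le_pow_left (Nat.add_le_add_right (lev_le_lev0 B M q N) 2) 3).trans
    (le_pow_scal hB _)

theorem clog_two_le (x : ℕ) : Nat.clog 2 x ≤ Nat.log 2 x + 1 :=
  Nat.clog_le_of_le_pow (Nat.lt_pow_succ_log_self (by norm_num) x).le

theorem two_pow_clog_le (x : ℕ) (hx : 1 ≤ x) : 2 ^ Nat.clog 2 x ≤ 2 * x := by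
  rcases Nat.lt_or_ge x 2 with h | h
  · have : x = 1 := by omega
    subst this
    simp
  · have h1 : 0 < Nat.clog 2 x := Nat.clog_pos (by norm_num) h
    obtain ⟨k, hk⟩ : ∃ k, Nat.clog 2 x = k + 1 := ⟨_, (Nat.succ_pred_eq_of_pos h1).symm⟩
    have h2 : ¬ x ≤ 2 ^ k := by
      intro h3
      have := Nat.clog_le_of_le_pow (b := 2) h3
      omega
    rw [hk, pow_succ]
    omega

/-- the number `2 ^ S` is at most logarithmic in the number of levels -/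
theorem two_pow_scal_le {B : ℕ} (hB : 2 ≤ B) (m : ℕ) :
    2 ^ scal B m ≤ 6 * (Nat.log 2 (m + 2) + 1) := by
  have h1 : 1 ≤ Nat.clog B ((m + 2) ^ 3) := by
    apply Nat.clog_pos (by omega)
    calc 2 ≤ m + 2 := by omega
      _ ≤ (m + 2) ^ 3 := Nat.le_self_pow (by norm_num) _
  have h2 : Nat.clog B ((m + 2) ^ 3) ≤ 3 * (Nat.log 2 (m + 2) + 1) := by
    apply Nat.clog_le_of_le_pow
    calc (m + 2) ^ 3 ≤ (2 ^ (Nat.log 2 (m + 2) + 1)) ^ 3 :=
          Nat.pow_le_pow_left (Nat.lt_pow_succ_log_self (by norm_num) _).le 3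
      _ = 2 ^ (3 * (Nat.log 2 (m + 2) + 1)) := by rw [← pow_mul, mul_comm]
      _ ≤ B ^ (3 * (Nat.log 2 (m + 2) + 1)) := Nat.pow_le_pow_left hB _
  calc 2 ^ scal B m ≤ 2 * Nat.clog B ((m + 2) ^ 3) := two_pow_clog_le _ h1
    _ ≤ 2 * (3 * (Nat.log 2 (m + 2) + 1)) := Nat.mul_le_mul_left _ h2
    _ = 6 * (Nat.log 2 (m + 2) + 1) := by ring

theorem log_le_log_two {M : ℕ} (hM : 2 ≤ M) (x : ℕ) : Nat.log M x ≤ Nat.log 2 x := by
  exact Nat.log_anti_left (by norm_num) hM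

theorem lev0_le {M : ℕ} (hM : 2 ≤ M) (q N : ℕ) : lev0 M q N ≤ Nat.log 2 (N + 1) :=
  (Nat.div_le_self _ _).trans (log_le_log_two hM _)

/-- `2 ^ S` is at most doubly logarithmic in `N` -/
theorem two_pow_scalN_le {B M : ℕ} (hB : 2 ≤ B) (hM : 2 ≤ M) (q N : ℕ) :
    2 ^ scalN B M q N ≤ 6 * (Nat.log 2 (Nat.log 2 (N + 1) + 2) + 1) := by
  refine (two_pow_scal_le hB _).trans ?_
  have := Nat.log_mono_right (b := 2) (Nat.add_le_add_right (lev0_le hM q N) 2)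
  omega

/-- the number of rows: `K ^ q ≤ N + 1` -/
theorem rows_pow_le {M : ℕ} (B q N : ℕ) : M ^ (q * lev B M q N) ≤ N + 1 := by
  rcases Nat.eq_zero_or_pos M with h | h
  · subst h
    rcases Nat.eq_zero_or_pos (q * lev B 0 q N) with h' | h'
    · rw [h']; simp
    · rw [Nat.zero_pow h']; omega
  · calc M ^ (q * lev B M q N) ≤ M ^ Nat.log M (N + 1) := by
          apply Nat.pow_le_pow_right h
          calc q * lev B M q N ≤ q * lev0 M q N := Nat.mul_le_mul_left _ (lev_le_lev0 _ _ _ _)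
            _ ≤ Nat.log M (N + 1) := Nat.mul_div_le _ _
      _ ≤ N + 1 := Nat.pow_log_le_self M (by omega)

theorem lt_rows_pow {M q : ℕ} (hM : 2 ≤ M) (hq : 1 ≤ q) (B N : ℕ) :
    N + 1 < M ^ (q * (lev B M q N + 2 ^ scalN B M q N)) := by
  have h1 : Nat.log M (N + 1) < q * (lev0 M q N + 1) := Nat.lt_mul_div_succ _ hq
  have h2 := lev0_lt B M q N
  calc N + 1 < M ^ (Nat.log M (N + 1) + 1) := Nat.lt_pow_succ_log_self (by omega) _
    _ ≤ M ^ (q * (lev B M q N + 2 ^ scalN B M q N)) := by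
        apply Nat.pow_le_pow_right (by omega)
        calc Nat.log M (N + 1) + 1 ≤ q * (lev0 M q N + 1) := h1
          _ ≤ q * (lev B M q N + 2 ^ scalN B M q N) := Nat.mul_le_mul_left _ h2

/-- `lev0` is one logarithm: the largest `t` with `(M ^ q) ^ t ≤ N + 1` -/
theorem lev0_eq {M q : ℕ} (hM : 2 ≤ M) (hq : 1 ≤ q) (N : ℕ) :
    lev0 M q N = Nat.log (M ^ q) (N + 1) := by
  have hMq : 1 < M ^ q := Nat.one_lt_pow (by omega) (by omega)
  symm
  apply (Nat.log_eq_iff (Or.inr ⟨hMq, by omega⟩)).2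
  rw [← pow_mul, ← pow_mul]
  constructor
  · calc M ^ (q * lev0 M q N) ≤ M ^ Nat.log M (N + 1) :=
          Nat.pow_le_pow_right (by omega) (Nat.mul_div_le _ _)
      _ ≤ N + 1 := Nat.pow_log_le_self M (by omega)
  · calc N + 1 < M ^ (Nat.log M (N + 1) + 1) := Nat.lt_pow_succ_log_self (by omega) _
      _ ≤ M ^ (q * (lev0 M q N + 1)) :=
          Nat.pow_le_pow_right (by omega) (Nat.lt_mul_div_succ _ hq)

/-! ### Logarithms against powers -/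

theorem natLog_le (x : ℕ) : (Nat.log 2 x : ℝ) ≤ Real.log x / Real.log 2 := by
  rcases Nat.eq_zero_or_pos x with h | h
  · subst h; simp
  · rw [le_div_iff₀ (Real.log_pos (by norm_num))]
    have h1 : (2 : ℝ) ^ Nat.log 2 x ≤ x := by
      exact_mod_cast Nat.pow_log_le_self 2 h.ne'
    calc (Nat.log 2 x : ℝ) * Real.log 2 = Real.log ((2 : ℝ) ^ Nat.log 2 x) := by
          rw [Real.log_pow]
      _ ≤ Real.log x := Real.log_le_log (by positivity) h1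

/-- powers of logarithms are smaller than small powers -/
theorem polylog_le (A : ℕ) {η : ℝ} (hη : 0 < η) :
    ∃ C : ℝ, 1 ≤ C ∧ ∀ N : ℕ, ((Nat.log 2 (N + 2) : ℝ) + 1) ^ A ≤ C * ((N : ℝ) + 1) ^ η := by
  -- use `η' = η / (A + 1)`
  set ε : ℝ := η / (A + 1) with hε
  have hεpos : 0 < ε := by positivity
  have hl2 : 0 < Real.log 2 := Real.log_pos (by norm_num)
  set D : ℝ := 2 ^ ε / (ε * Real.log 2) + 1 with hD
  have hD1 : 1 ≤ D := by
    have : 0 ≤ 2 ^ ε / (ε * Real.log 2) := by positivity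
    linarith
  refine ⟨D ^ A, one_le_pow₀ hD1, fun N => ?_⟩
  have hN : (1 : ℝ) ≤ (N : ℝ) + 1 := by
    have : (0 : ℝ) ≤ N := Nat.cast_nonneg N
    linarith
  have h1 : (Nat.log 2 (N + 2) : ℝ) ≤ ((N + 2 : ℕ) : ℝ) ^ ε / (ε * Real.log 2) := by
    refine (natLog_le _).trans ?_
    rw [div_le_div_iff₀ hl2 (by positivity)]
    have := Real.log_le_rpow_div (x := ((N + 2 : ℕ) : ℝ)) (by positivity) hεpos
    rw [le_div_iff₀ hεpos] at this
    nlinarith [hl2]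
  have h2 : ((N + 2 : ℕ) : ℝ) ^ ε ≤ 2 ^ ε * ((N : ℝ) + 1) ^ ε := by
    rw [← Real.mul_rpow (by norm_num) (by positivity)]
    apply Real.rpow_le_rpow (by positivity) _ hεpos.le
    push_cast
    linarith
  have hge1 : (1 : ℝ) ≤ ((N : ℝ) + 1) ^ ε := Real.one_le_rpow hN hεpos.le
  have h3 : (Nat.log 2 (N + 2) : ℝ) + 1 ≤ D * ((N : ℝ) + 1) ^ ε := by
    have h4 : ((N + 2 : ℕ) : ℝ) ^ ε / (ε * Real.log 2) ≤
        2 ^ ε / (ε * Real.log 2) * ((N : ℝ) + 1) ^ ε := by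
      calc ((N + 2 : ℕ) : ℝ) ^ ε / (ε * Real.log 2)
          ≤ (2 ^ ε * ((N : ℝ) + 1) ^ ε) / (ε * Real.log 2) :=
            div_le_div_of_nonneg_right h2 (by positivity)
        _ = 2 ^ ε / (ε * Real.log 2) * ((N : ℝ) + 1) ^ ε := by ring
    rw [hD, add_mul, one_mul]
    linarith
  calc ((Nat.log 2 (N + 2) : ℝ) + 1) ^ A ≤ (D * ((N : ℝ) + 1) ^ ε) ^ A :=
        pow_le_pow_left₀ (by positivity) h3 A
    _ = D ^ A * (((N : ℝ) + 1) ^ ε) ^ A := mul_pow _ _ _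
    _ ≤ D ^ A * ((N : ℝ) + 1) ^ η := by
        apply mul_le_mul_of_nonneg_left _ (by positivity)
        rw [← Real.rpow_natCast, ← Real.rpow_mul (by positivity)]
        apply Real.rpow_le_rpow_of_exponent_le hN
        rw [hε, div_mul_eq_mul_div, div_le_iff₀ (by positivity)]
        nlinarith [hη]

/-- `exp (c w)` is smaller than every power if `w` is doubly logarithmic -/
theorem exp_loglog_le (c a : ℝ) {η : ℝ} (hη : 0 < η) :
    ∃ C : ℝ, 1 ≤ C ∧ ∀ N : ℕ, ∀ w : ℝ, w ≤ a * ((Nat.log 2 (Nat.log 2 (N + 1) + 2) : ℝ) + 1) →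
      0 ≤ w → Real.exp (c * w) ≤ C * ((N : ℝ) + 1) ^ η := by
  -- `exp (c w) ≤ exp (b (log2 log2 N + 1)) ≤ (2 (log2 N + 2)) ^ b'`
  obtain ⟨b, hb⟩ := exists_nat_ge (|c| * |a| / Real.log 2)
  have hl2 : 0 < Real.log 2 := Real.log_pos (by norm_num)
  obtain ⟨C, hC1, hC⟩ := polylog_le b hη
  refine ⟨4 ^ b * C, ?_, fun N w hw hw0 => ?_⟩
  · have : (1 : ℝ) ≤ 4 ^ b := one_le_pow₀ (by norm_num)
    nlinarith
  · set t : ℕ := Nat.log 2 (N + 1) + 2 with ht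
    have ht1 : (1 : ℝ) ≤ t := by
      have : 1 ≤ t := by omega
      exact_mod_cast this
    have h1 : c * w ≤ (b : ℝ) * (Real.log t + Real.log 2) := by
      have h2 : w ≤ |a| * ((Nat.log 2 t : ℝ) + 1) :=
        hw.trans (mul_le_mul_of_nonneg_right (le_abs_self a) (by positivity))
      have h3 : (Nat.log 2 t : ℝ) + 1 ≤ (Real.log t + Real.log 2) / Real.log 2 := by
        rw [add_div, div_self hl2.ne']
        have := natLog_le t
        linarith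
      have h4 : 0 ≤ Real.log t + Real.log 2 := by
        have := Real.log_nonneg ht1
        linarith
      calc c * w ≤ |c| * w := mul_le_mul_of_nonneg_right (le_abs_self c) hw0
        _ ≤ |c| * (|a| * ((Nat.log 2 t : ℝ) + 1)) := mul_le_mul_of_nonneg_left h2 (abs_nonneg c)
        _ ≤ |c| * (|a| * ((Real.log t + Real.log 2) / Real.log 2)) := by gcongr
        _ = |c| * |a| / Real.log 2 * (Real.log t + Real.log 2) := by ring
        _ ≤ (b : ℝ) * (Real.log t + Real.log 2) := mul_le_mul_of_nonneg_right hb h4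
    have h5 : Real.exp ((b : ℝ) * (Real.log t + Real.log 2)) = ((t : ℝ) * 2) ^ b := by
      rw [← Real.log_mul (by positivity) (by norm_num), Real.exp_nat_mul,
        Real.exp_log (by positivity)]
    calc Real.exp (c * w) ≤ Real.exp ((b : ℝ) * (Real.log t + Real.log 2)) := Real.exp_le_exp.2 h1
      _ = ((t : ℝ) * 2) ^ b := h5
      _ ≤ (4 * ((Nat.log 2 (N + 2) : ℝ) + 1)) ^ b := by
          apply pow_le_pow_left₀ (by positivity)
          have : (Nat.log 2 (N + 1) : ℝ) ≤ Nat.log 2 (N + 2) := by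
            exact_mod_cast Nat.log_mono_right (by omega)
          have h0 : (0 : ℝ) ≤ Nat.log 2 (N + 2) := Nat.cast_nonneg _
          rw [ht]
          push_cast
          linarith
      _ = 4 ^ b * ((Nat.log 2 (N + 2) : ℝ) + 1) ^ b := mul_pow _ _ _
      _ ≤ 4 ^ b * (C * ((N : ℝ) + 1) ^ η) := mul_le_mul_of_nonneg_left (hC N) (by positivity)
      _ = 4 ^ b * C * ((N : ℝ) + 1) ^ η := by ring

/-- the area factor: `exp (- c L)` is a negative power of `N` -/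
theorem exp_neg_le {M q : ℕ} (hM : 2 ≤ M) (hq : 1 ≤ q) {c : ℝ} (hc : 0 < c) {N L : ℕ} {w : ℝ}
    (h : ((N : ℝ) + 1) ≤ (M : ℝ) ^ ((q : ℝ) * (L + w))) :
    Real.exp (-(c * L)) ≤ Real.exp (c * w) * ((N : ℝ) + 1) ^ (-(c / (q * Real.log M))) := by
  have hM' : (1 : ℝ) < M := by exact_mod_cast hM
  have hlM : 0 < Real.log M := Real.log_pos hM'
  have hqpos : (0 : ℝ) < q := by exact_mod_cast hq
  have hN : (0 : ℝ) < (N : ℝ) + 1 := by positivity
  rw [Real.rpow_def_of_pos hN, ← Real.exp_add]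
  apply Real.exp_le_exp.2
  have h1 : Real.log ((N : ℝ) + 1) ≤ (q : ℝ) * (L + w) * Real.log M := by
    rw [← Real.log_rpow (by positivity)]
    exact Real.log_le_log hN h
  have h2 : Real.log ((N : ℝ) + 1) / (q * Real.log M) ≤ L + w := by
    rw [div_le_iff₀ (by positivity)]
    linarith
  have h3 : Real.log ((N : ℝ) + 1) * -(c / (q * Real.log M)) =
      -(c * (Real.log ((N : ℝ) + 1) / (q * Real.log M))) := by ring
  rw [h3]
  nlinarith [mul_le_mul_of_nonneg_left h2 hc.le]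

/-- THE FINAL EXPONENT. `K = M ^ L` rows, `K ^ q ≤ N + 1`; the reads cost
`K ^ 2 exp (- c L)` times `(N / K + 1) ^ 2`; the overhead is a power `A ≤ q` of `K log N`. -/
theorem final_time {M q A A' : ℕ} (hM : 2 ≤ M) (hq : 1 ≤ q) (hA : A ≤ q) {c C₀ a : ℝ}
    (hc : 0 < c) (hC₀ : 0 ≤ C₀) :
    ∃ δ C : ℝ, 0 < δ ∧ 0 ≤ C ∧ ∀ N L w : ℕ,
      (w : ℝ) ≤ a * ((Nat.log 2 (Nat.log 2 (N + 1) + 2) : ℝ) + 1) →
      M ^ (q * L) ≤ N + 1 → N + 1 < M ^ (q * (L + w)) →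
      C₀ * (((M : ℝ) ^ L) ^ 2 * Real.exp (-(c * L))) * ((N : ℝ) / (M : ℝ) ^ L + 1) ^ 2
        + C₀ * ((M : ℝ) ^ L) ^ A * ((Nat.log 2 (N + 2) : ℝ) + 1) ^ A'
        + C₀ * ((N : ℝ) + 1) * ((Nat.log 2 (N + 2) : ℝ) + 1) ^ A'
      ≤ C * ((N : ℝ) + 1) ^ (2 - δ) := by
  have hM' : (1 : ℝ) < M := by exact_mod_cast hM
  have hlM : 0 < Real.log M := Real.log_pos hM'
  have hqpos : (0 : ℝ) < q := by exact_mod_cast hq
  set γ : ℝ := c / (q * Real.log M) with hγ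
  have hγpos : 0 < γ := by positivity
  set δ : ℝ := min (γ / 2) (1 / 2) with hδ
  have hδpos : 0 < δ := lt_min (by positivity) (by norm_num)
  obtain ⟨C₁, hC₁1, hC₁⟩ := exp_loglog_le c a (η := γ / 2) (by positivity)
  obtain ⟨C₂, hC₂1, hC₂⟩ := polylog_le A' (η := 1 / 2) (by norm_num)
  refine ⟨δ, 4 * C₀ * C₁ + C₀ * C₂ + C₀ * C₂, hδpos, by positivity, fun N L w hw hK hN => ?_⟩
  have hN1 : (1 : ℝ) ≤ (N : ℝ) + 1 := by
    have : (0 : ℝ) ≤ N := Nat.cast_nonneg N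
    linarith
  have hKpos : (0 : ℝ) < (M : ℝ) ^ L := by positivity
  have hK1 : (1 : ℝ) ≤ (M : ℝ) ^ L := one_le_pow₀ hM'.le
  have hKq : ((M : ℝ) ^ L) ^ q ≤ (N : ℝ) + 1 := by
    rw [← pow_mul, mul_comm L q]
    exact_mod_cast hK
  have hKN : (M : ℝ) ^ L ≤ (N : ℝ) + 1 :=
    le_trans (by simpa using pow_le_pow_right₀ hK1 hq) hKq
  have hKA : ((M : ℝ) ^ L) ^ A ≤ (N : ℝ) + 1 := (pow_le_pow_right₀ hK1 hA).trans hKq
  -- first term
  have t1 : C₀ * (((M : ℝ) ^ L) ^ 2 * Real.exp (-(c * L))) * ((N : ℝ) / (M : ℝ) ^ L + 1) ^ 2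
      ≤ 4 * C₀ * C₁ * ((N : ℝ) + 1) ^ (2 - δ) := by
    have e1 : ((M : ℝ) ^ L) ^ 2 * ((N : ℝ) / (M : ℝ) ^ L + 1) ^ 2 = ((N : ℝ) + (M : ℝ) ^ L) ^ 2 := by
      rw [← mul_pow, mul_add, mul_one, mul_div_cancel₀ _ hKpos.ne']
    have e2 : ((N : ℝ) + (M : ℝ) ^ L) ^ 2 ≤ 4 * ((N : ℝ) + 1) ^ 2 := by nlinarith
    have e3 : Real.exp (-(c * L)) ≤ C₁ * ((N : ℝ) + 1) ^ (γ / 2) * ((N : ℝ) + 1) ^ (-γ) := by
      have h1 : ((N : ℝ) + 1) ≤ (M : ℝ) ^ ((q : ℝ) * (L + (w : ℝ))) := by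
        have : ((q : ℝ) * (L + (w : ℝ))) = ((q * (L + w) : ℕ) : ℝ) := by push_cast; ring
        rw [this, Real.rpow_natCast]
        exact_mod_cast hN.le
      refine (exp_neg_le hM hq hc h1).trans ?_
      exact mul_le_mul_of_nonneg_right (hC₁ N w hw (Nat.cast_nonneg w)) (by positivity)
    have e4 : ((N : ℝ) + 1) ^ (γ / 2) * ((N : ℝ) + 1) ^ (-γ) * ((N : ℝ) + 1) ^ 2
        ≤ ((N : ℝ) + 1) ^ (2 - δ) := by
      rw [← Real.rpow_natCast (((N : ℝ) + 1)) 2, ← Real.rpow_add (by positivity),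
        ← Real.rpow_add (by positivity)]
      apply Real.rpow_le_rpow_of_exponent_le hN1
      have : δ ≤ γ / 2 := min_le_left _ _
      push_cast
      linarith
    calc C₀ * (((M : ℝ) ^ L) ^ 2 * Real.exp (-(c * L))) * ((N : ℝ) / (M : ℝ) ^ L + 1) ^ 2
        = C₀ * Real.exp (-(c * L)) * (((M : ℝ) ^ L) ^ 2 * ((N : ℝ) / (M : ℝ) ^ L + 1) ^ 2) := by
          ring
      _ = C₀ * Real.exp (-(c * L)) * ((N : ℝ) + (M : ℝ) ^ L) ^ 2 := by rw [e1]
      _ ≤ C₀ * (C₁ * ((N : ℝ) + 1) ^ (γ / 2) * ((N : ℝ) + 1) ^ (-γ)) * (4 * ((N : ℝ) + 1) ^ 2) := by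
          gcongr
      _ = 4 * C₀ * C₁ * (((N : ℝ) + 1) ^ (γ / 2) * ((N : ℝ) + 1) ^ (-γ) * ((N : ℝ) + 1) ^ 2) := by
          ring
      _ ≤ 4 * C₀ * C₁ * ((N : ℝ) + 1) ^ (2 - δ) :=
          mul_le_mul_of_nonneg_left e4 (by positivity)
  -- the other two
  have e5 : ((N : ℝ) + 1) * ((Nat.log 2 (N + 2) : ℝ) + 1) ^ A' ≤ C₂ * ((N : ℝ) + 1) ^ (2 - δ) := by
    calc ((N : ℝ) + 1) * ((Nat.log 2 (N + 2) : ℝ) + 1) ^ A'
        ≤ ((N : ℝ) + 1) * (C₂ * ((N : ℝ) + 1) ^ (1 / 2 : ℝ)) :=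
          mul_le_mul_of_nonneg_left (hC₂ N) (by positivity)
      _ = C₂ * (((N : ℝ) + 1) ^ (1 : ℝ) * ((N : ℝ) + 1) ^ (1 / 2 : ℝ)) := by
          rw [Real.rpow_one]; ring
      _ ≤ C₂ * ((N : ℝ) + 1) ^ (2 - δ) := by
          apply mul_le_mul_of_nonneg_left _ (by positivity)
          rw [← Real.rpow_add (by positivity)]
          apply Real.rpow_le_rpow_of_exponent_le hN1
          have : δ ≤ 1 / 2 := min_le_right _ _
          linarith
  have t2 : C₀ * ((M : ℝ) ^ L) ^ A * ((Nat.log 2 (N + 2) : ℝ) + 1) ^ A'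
      ≤ C₀ * C₂ * ((N : ℝ) + 1) ^ (2 - δ) := by
    calc C₀ * ((M : ℝ) ^ L) ^ A * ((Nat.log 2 (N + 2) : ℝ) + 1) ^ A'
        ≤ C₀ * ((N : ℝ) + 1) * ((Nat.log 2 (N + 2) : ℝ) + 1) ^ A' := by gcongr
      _ = C₀ * (((N : ℝ) + 1) * ((Nat.log 2 (N + 2) : ℝ) + 1) ^ A') := by ring
      _ ≤ C₀ * (C₂ * ((N : ℝ) + 1) ^ (2 - δ)) := mul_le_mul_of_nonneg_left e5 hC₀
      _ = C₀ * C₂ * ((N : ℝ) + 1) ^ (2 - δ) := by ring
  have t3 : C₀ * ((N : ℝ) + 1) * ((Nat.log 2 (N + 2) : ℝ) + 1) ^ A'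
      ≤ C₀ * C₂ * ((N : ℝ) + 1) ^ (2 - δ) := by
    calc C₀ * ((N : ℝ) + 1) * ((Nat.log 2 (N + 2) : ℝ) + 1) ^ A'
        = C₀ * (((N : ℝ) + 1) * ((Nat.log 2 (N + 2) : ℝ) + 1) ^ A') := by ring
      _ ≤ C₀ * (C₂ * ((N : ℝ) + 1) ^ (2 - δ)) := mul_le_mul_of_nonneg_left e5 hC₀
      _ = C₀ * C₂ * ((N : ℝ) + 1) ^ (2 - δ) := by ring
  calc _ ≤ 4 * C₀ * C₁ * ((N : ℝ) + 1) ^ (2 - δ) + C₀ * C₂ * ((N : ℝ) + 1) ^ (2 - δ)
        + C₀ * C₂ * ((N : ℝ) + 1) ^ (2 - δ) := add_le_add (add_le_add t1 t2) t3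
    _ = _ := by ring

/-- `final_time` for the number of levels chosen above. -/
theorem final_time_lev {B M q A A' : ℕ} (hB : 2 ≤ B) (hM : 2 ≤ M) (hq : 1 ≤ q) (hA : A ≤ q)
    {c C₀ : ℝ} (hc : 0 < c) (hC₀ : 0 ≤ C₀) :
    ∃ δ C : ℝ, 0 < δ ∧ 0 ≤ C ∧ ∀ N : ℕ,
      C₀ * (((M : ℝ) ^ lev B M q N) ^ 2 * Real.exp (-(c * lev B M q N)))
          * ((N : ℝ) / (M : ℝ) ^ lev B M q N + 1) ^ 2
        + C₀ * ((M : ℝ) ^ lev B M q N) ^ A * ((Nat.log 2 (N + 2) : ℝ) + 1) ^ A'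
        + C₀ * ((N : ℝ) + 1) * ((Nat.log 2 (N + 2) : ℝ) + 1) ^ A'
      ≤ C * ((N : ℝ) + 1) ^ (2 - δ) := by
  obtain ⟨δ, C, hδ, hC, h⟩ := final_time (A' := A') hM hq hA (a := 6) hc hC₀
  refine ⟨δ, C, hδ, hC, fun N => h N (lev B M q N) (2 ^ scalN B M q N) ?_ (rows_pow_le B q N)
    (lt_rows_pow hM hq B N)⟩
  have := two_pow_scalN_le hB hM q N
  exact_mod_cast this

end Vale.Agent.P315.H809
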